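import Vale.Agent.P197.KronDefs
import Vale.Agent.P197.KronFinal

/-! # P197, Q1: Saxl's conjecture

For every `m` and every Young diagram `ν` with `m (m + 1) / 2` cells, the Kronecker coefficient
`g (ρ_m, ρ_m, ν)` is positive. -/

open Vale.Agent.P197.Kron

/-- **Saxl's conjecture.** -/
theorem Vale.Agent.Results.P197.Saxl.result (m : ℕ) (nu : YoungDiagram)
    (h : nu.card = m * (m + 1) / 2) :
    0 < kronecker (m * (m + 1) / 2) (staircase m) (staircase m) nu :=
  saxl m nu h
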